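import Vale.Agent.P207.N4.Dim
import Vale.Agent.P207.N4.H281.Jets2
import Vale.Agent.P207.N4.H751.SB2
import Vale.Agent.P207.N4.H832.RateP
import Vale.Agent.P207.H281.End

/-!
# P207, line N4, END-GLUE: the rough space is not everything
-/

set_option linter.unusedSectionVars false

open Set Filter Topology Metric
open scoped ContDiff

noncomputable section

namespace Vale.Agent.P207.N4

open Vale.Agent.P207.N3 H547 H709 Vale.Agent.P207.H751 Vale.Agent.P207.H686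

variable [Dim]

variable {Γ X B : Type} [Group Γ] [MetricSpace X] [ProperSpace X] [MulAction Γ X]
  [IsIsometricSMul Γ X] [TopologicalSpace B] [CompactSpace B] [T2Space B] [MulAction Γ B]
  [ContinuousConstSMul Γ B]

namespace Pic

variable {L : Leaf Γ X B} [MeasurableSpace B] [BorelSpace B] {V : Type}
  [NormedAddCommGroup V] [NormedSpace ℝ V] [FiniteDimensional ℝ V] (P : Pic L V)

/-- all symmetric forms with smooth pairing vanish -/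
def Rough : Prop := ∀ x, ∀ s ∈ P.Sm x, (∀ v w, inner ℝ (s v) w = inner ℝ v (s w)) → s = 0

/-- the data of the product formula exist at every frame, with uniform constants -/
def HasPD : Prop := ∃ (K θ r0 : ℝ) (Ck : ℕ → ℝ) (CQ : ℝ → ℝ → (ℕ → ℝ) → ℝ → ℝ), 1 ≤ K ∧ 0 < θ ∧
  θ ≤ 1 / 2 ∧ 0 < r0 ∧ (∀ k, 0 ≤ Ck k) ∧
  ∀ x, ∃ d : H281.PD E2, d.Ok K θ r0 Ck CQ ∧ ∀ y, d.g y = P.gr x (P.lb x y)

set_option maxSynthPendingDepth 3 in
/-- the 2-jets of the tensor, paired with forms -/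
theorem jets_form (hR : P.RateP) (h : P.HasPD) {ε : ℝ} (hε : 0 < ε) (hε1 : ε ≤ 3 / 4) :
    ∃ C R : ℝ, 0 < R ∧ R ≤ 1 ∧ ∀ x, ∃ (a : Fm E2 →L[ℝ] ℝ) (A : E2 →L[ℝ] (Fm E2 →L[ℝ] ℝ))
      (Q : E2 →L[ℝ] E2 →L[ℝ] (Fm E2 →L[ℝ] ℝ)), ‖a‖ ≤ C ∧ ‖A‖ ≤ C ∧ ‖Q‖ ≤ C ∧
        ∀ z ∈ ball (0 : E2) R, ‖(H751.pzd P hR).N x z - (a + A z + Q z z)‖ ≤ C * ‖z‖ ^ (3 - ε) := by
  obtain ⟨K, θ, r0, Ck, CQ, h1, h2, h3, h4, h5, h6⟩ := h
  obtain ⟨C, R, hR0, hR1, hj⟩ := P.jets h1 h2 h3 h4 h5 h6 hε hε1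
  set Ψ : (E2 →L[ℝ] E2) →L[ℝ] (Fm E2 →L[ℝ] ℝ) := prL (EuclideanSpace.basisFun (Fin Dim.m) ℝ)
    with hΨ
  refine ⟨‖Ψ‖ * C, R, hR0, hR1, fun x => ?_⟩
  obtain ⟨a, A, Q, ha, hA, hQ, hz⟩ := hj x
  have hΨ0 : 0 ≤ ‖Ψ‖ := norm_nonneg _
  refine ⟨Ψ a, Ψ.comp A, (ContinuousLinearMap.compL ℝ E2 (E2 →L[ℝ] E2) (Fm E2 →L[ℝ] ℝ) Ψ).comp Q,
    ?_, ?_, ?_, fun z hzR => ?_⟩
  · exact (Ψ.le_opNorm a).trans (mul_le_mul_of_nonneg_left ha hΨ0)
  · exact (ContinuousLinearMap.opNorm_comp_le _ _).trans (mul_le_mul_of_nonneg_left hA hΨ0)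
  · refine ContinuousLinearMap.opNorm_le_bound₂ _ (mul_nonneg hΨ0 ((norm_nonneg Q).trans hQ))
      fun u v => ?_
    have e1 : ((ContinuousLinearMap.compL ℝ E2 (E2 →L[ℝ] E2) (Fm E2 →L[ℝ] ℝ) Ψ).comp Q) u v
        = Ψ (Q u v) := rfl
    rw [e1]
    calc ‖Ψ (Q u v)‖ ≤ ‖Ψ‖ * ‖Q u v‖ := Ψ.le_opNorm _
      _ ≤ ‖Ψ‖ * (C * ‖u‖ * ‖v‖) := by
        refine mul_le_mul_of_nonneg_left ((Q.le_opNorm₂ u v).trans ?_) hΨ0
        gcongr
      _ = _ := by ring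
  · have e2 := hz z hzR
    have hz2 : z ∈ closedBall (0 : E2) 2 := by
      rw [mem_ball_zero_iff] at hzR
      rw [mem_closedBall_zero_iff]
      linarith
    have e3 : (H751.pzd P hR).N x z = Ψ (P.Na x z) := by
      have e4 : (H751.pzd P hR).N x z = Ψ ((H751.toIn P.Af).Nh P.S.T x z) := rfl
      rw [e4, H751.toIn_Nh P.Af P.S.T x hz2]
      rfl
    have e5 : (H751.pzd P hR).N x z - (Ψ a + (Ψ.comp A) z +
        ((ContinuousLinearMap.compL ℝ E2 (E2 →L[ℝ] E2) (Fm E2 →L[ℝ] ℝ) Ψ).comp Q) z z)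
        = Ψ (P.Na x z - (a + A z + Q z z)) := by
      rw [e3, map_sub, map_add, map_add]
      rfl
    rw [e5]
    calc _ ≤ ‖Ψ‖ * ‖P.Na x z - (a + A z + Q z z)‖ := Ψ.le_opNorm _
      _ ≤ ‖Ψ‖ * (C * ‖z‖ ^ (3 - ε)) := mul_le_mul_of_nonneg_left e2 hΨ0
      _ = _ := by ring

/-- the tensor is smooth -/
theorem top_of_pd (hR : P.RateP) (h : P.HasPD) (x : X) : (H751.pzd P hR).Sm x = ⊤ := by
  have ha := P.Ra.a_pos
  have hab := P.Ra.a_le_b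
  have hp := P.Ra.pinch
  set ε : ℝ := (3 * P.Ra.a - 2 * P.Ra.b) / (2 * P.Ra.a) with hε
  have hε0 : 0 < ε := div_pos (by linarith) (by linarith)
  have hε1 : ε ≤ 1 / 2 := by
    rw [hε, div_le_div_iff₀ (by linarith) (by norm_num)]
    linarith
  have hεa : ε * P.Ra.a = (3 * P.Ra.a - 2 * P.Ra.b) / 2 := by
    rw [hε]
    field_simp
  obtain ⟨C, R, hR0, hR1, hj⟩ := P.jets_form hR h hε0 (by linarith)
  refine P207.H281.sm_top_of_jets (H751.pzd P hR) (s := 3 - ε) (C := C) (R := R) (by linarith)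
    (by linarith) ?_ hR0 hR1 hj x
  have e1 : (H751.pzd P hR).Lam = Real.exp (P.Ra.b * 1) ^ 2 := rfl
  have e2 : (H751.pzd P hR).lam = Real.exp (-(P.Ra.a * 1)) := rfl
  rw [e1, e2, ← Real.exp_nat_mul, ← Real.exp_mul, ← Real.exp_add, Real.exp_lt_one_iff]
  push_cast
  have e3 : (-(P.Ra.a * 1)) * (3 - ε) = -3 * P.Ra.a + ε * P.Ra.a := by ring
  rw [e3, hεa]
  linarith

/-- **(PROD)**: the rough space is not everything, from the data of the product formula -/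
theorem prod_of (h : P.Rough → P.HasPD) : P.Prod := by
  intro hr
  have hR : P.RateP := H832.rateP P
  have h1 := P.top_of_pd hR (h hr)
  obtain ⟨x⟩ := L.nonempty
  have h2 : (ContinuousLinearMap.id ℝ E2) ∈ P.Sm x := by
    rw [H751.mem_Sm_iff P hR, h1]
    exact Submodule.mem_top
  have h3 := hr x _ h2 fun v w => rfl
  have h4 : Nontrivial E2 := inferInstance
  obtain ⟨v, hv⟩ := exists_ne (0 : E2)
  refine hv ?_
  have h5 := DFunLike.congr_fun h3 v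
  exact h5

end Pic

end Vale.Agent.P207.N4
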